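/-
S0112 (row 84), package F of notes/s0112/PROOF.md: Riemann sums on a uniform grid converge to the
interval average, for continuous functions with values in a Banach space.  Mathlib only.
-/
import Mathlib

set_option autoImplicit false

namespace Crest.Agent.Helper97.S0112

open Filter MeasureTheory Topology

section real

variable {E : Type*} [NormedAddCommGroup E] [NormedSpace ℝ E] [CompleteSpace E]

/-- Quantitative form: for a continuous `Ψ` on `ℝ`, the uniform-grid average over `[a, b]` is within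
`ε` of the interval average as soon as `N ≥ N0`. -/
theorem riemann_err (Ψ : ℝ → E) (hΨ : Continuous Ψ) (a b : ℝ) (hab : a < b) (ε : ℝ) (hε : 0 < ε) :
    ∃ N0 : ℕ, 0 < N0 ∧ ∀ N : ℕ, N0 ≤ N →
      ‖(N : ℝ)⁻¹ • ∑ i ∈ Finset.range N, Ψ (a + (b - a) * i / N) -
        (b - a)⁻¹ • ∫ t in a..b, Ψ t‖ ≤ ε := by
  have hL : 0 < b - a := sub_pos.mpr hab
  have huc : UniformContinuousOn Ψ (Set.Icc a b) :=
    isCompact_Icc.uniformContinuousOn_of_continuous hΨ.continuousOn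
  obtain ⟨δ, hδ, hδ'⟩ := Metric.uniformContinuousOn_iff.mp huc ε hε
  obtain ⟨N0, hN0⟩ := exists_nat_gt ((b - a) / δ)
  have hN0pos : 0 < N0 := by
    have h1 : (0 : ℝ) < (b - a) / δ := div_pos hL hδ
    have h2 : (0 : ℝ) < N0 := lt_trans h1 hN0
    exact_mod_cast h2
  refine ⟨N0, hN0pos, ?_⟩
  intro N hN
  have hNpos : 0 < N := lt_of_lt_of_le hN0pos hN
  have hNR : (0 : ℝ) < N := by exact_mod_cast hNpos
  have hNne : (N : ℝ) ≠ 0 := ne_of_gt hNR
  have hLne : b - a ≠ 0 := ne_of_gt hL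
  -- mesh is less than δ
  have hmesh : (b - a) / N < δ := by
    have h1 : (b - a) / δ < N := lt_of_lt_of_le hN0 (by exact_mod_cast hN)
    rw [div_lt_iff₀ hNR]
    rw [div_lt_iff₀ hδ] at h1
    linarith
  set t : ℕ → ℝ := fun i => a + (b - a) * i / N with ht
  have ht0 : t 0 = a := by simp [ht]
  have htN : t N = b := by
    simp only [ht]
    field_simp
    ring
  have hstep : ∀ i : ℕ, t (i + 1) - t i = (b - a) / N := by
    intro i
    simp only [ht]
    push_cast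
    field_simp
    ring
  have hmono : ∀ i : ℕ, t i ≤ t (i + 1) := by
    intro i
    have := hstep i
    have h2 : 0 < (b - a) / N := div_pos hL hNR
    linarith
  have hlow : ∀ i : ℕ, a ≤ t i := by
    intro i
    simp only [ht]
    have : 0 ≤ (b - a) * i / N := by positivity
    linarith
  have hhigh : ∀ i : ℕ, i ≤ N → t i ≤ b := by
    intro i hi
    simp only [ht]
    have hi' : (i : ℝ) ≤ N := by exact_mod_cast hi
    have : (b - a) * i / N ≤ b - a := by
      rw [div_le_iff₀ hNR]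
      exact mul_le_mul_of_nonneg_left hi' hL.le
    linarith
  -- split the integral
  have hsplit : ∫ x in a..b, Ψ x = ∑ i ∈ Finset.range N, ∫ x in (t i)..(t (i + 1)), Ψ x := by
    have := intervalIntegral.sum_integral_adjacent_intervals (μ := volume) (f := Ψ) (a := t) (n := N)
      (fun k _ => hΨ.intervalIntegrable _ _)
    rw [ht0, htN] at this
    exact this.symm
  -- each grid value as an integral of a constant
  have hconst : ∀ i : ℕ, Ψ (t i) = ((N : ℝ) / (b - a)) • ∫ _x in (t i)..(t (i + 1)), Ψ (t i) := by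
    intro i
    rw [intervalIntegral.integral_const, hstep i, smul_smul]
    have : (N : ℝ) / (b - a) * ((b - a) / N) = 1 := by field_simp
    rw [this, one_smul]
  have hdiff : (N : ℝ)⁻¹ • ∑ i ∈ Finset.range N, Ψ (t i) - (b - a)⁻¹ • ∫ x in a..b, Ψ x =
      (b - a)⁻¹ • ∑ i ∈ Finset.range N, ∫ x in (t i)..(t (i + 1)), (Ψ (t i) - Ψ x) := by
    rw [hsplit]
    have h1 : ∀ i ∈ Finset.range N, ∫ x in (t i)..(t (i + 1)), (Ψ (t i) - Ψ x) =
        (∫ _x in (t i)..(t (i + 1)), Ψ (t i)) - ∫ x in (t i)..(t (i + 1)), Ψ x := by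
      intro i _
      exact intervalIntegral.integral_sub intervalIntegrable_const (hΨ.intervalIntegrable _ _)
    rw [Finset.sum_congr rfl h1, Finset.sum_sub_distrib, smul_sub]
    congr 1
    rw [Finset.smul_sum, Finset.smul_sum]
    refine Finset.sum_congr rfl (fun i _ => ?_)
    conv_lhs => rw [hconst i]
    rw [smul_smul]
    congr 1
    field_simp
  show ‖(N : ℝ)⁻¹ • ∑ i ∈ Finset.range N, Ψ (t i) - (b - a)⁻¹ • ∫ x in a..b, Ψ x‖ ≤ ε
  rw [hdiff, norm_smul, Real.norm_eq_abs, abs_of_pos (inv_pos.mpr hL)]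
  have hterm : ∀ i ∈ Finset.range N,
      ‖∫ x in (t i)..(t (i + 1)), (Ψ (t i) - Ψ x)‖ ≤ ε * ((b - a) / N) := by
    intro i hi
    have hiN : i < N := Finset.mem_range.mp hi
    have hb := intervalIntegral.norm_integral_le_of_norm_le_const (a := t i) (b := t (i + 1))
      (f := fun x => Ψ (t i) - Ψ x) (C := ε) ?_
    · rw [hstep i, abs_of_pos (div_pos hL hNR)] at hb
      exact hb
    · intro x hx
      rw [Set.uIoc_of_le (hmono i)] at hx
      have hxa : a ≤ x := le_trans (hlow i) hx.1.le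
      have hxb : x ≤ b := le_trans hx.2 (hhigh (i + 1) hiN)
      have hti : t i ∈ Set.Icc a b := ⟨hlow i, hhigh i hiN.le⟩
      have hdist : dist (t i) x < δ := by
        rw [Real.dist_eq, abs_sub_comm, abs_of_pos (sub_pos.mpr hx.1)]
        have := hstep i
        linarith [hx.2]
      have := hδ' (t i) hti x ⟨hxa, hxb⟩ hdist
      rw [dist_eq_norm] at this
      exact this.le
  calc (b - a)⁻¹ * ‖∑ i ∈ Finset.range N, ∫ x in (t i)..(t (i + 1)), (Ψ (t i) - Ψ x)‖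
      ≤ (b - a)⁻¹ * ∑ i ∈ Finset.range N, ‖∫ x in (t i)..(t (i + 1)), (Ψ (t i) - Ψ x)‖ :=
        mul_le_mul_of_nonneg_left (norm_sum_le _ _) (inv_pos.mpr hL).le
    _ ≤ (b - a)⁻¹ * ∑ _i ∈ Finset.range N, ε * ((b - a) / N) :=
        mul_le_mul_of_nonneg_left (Finset.sum_le_sum hterm) (inv_pos.mpr hL).le
    _ = ε := by
        rw [Finset.sum_const, Finset.card_range, nsmul_eq_mul]
        field_simp

/-- **F1 (general interval).** Uniform-grid averages of a continuous Banach-valued function converge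
to the interval average. -/
theorem riemann_tendsto (Ψ : ℝ → E) (hΨ : Continuous Ψ) (a b : ℝ) (hab : a < b) :
    Tendsto (fun N : ℕ => (N : ℝ)⁻¹ • ∑ i ∈ Finset.range N, Ψ (a + (b - a) * i / N)) atTop
      (𝓝 ((b - a)⁻¹ • ∫ t in a..b, Ψ t)) := by
  rw [Metric.tendsto_atTop]
  intro ε hε
  obtain ⟨N0, _, hN0⟩ := riemann_err Ψ hΨ a b hab (ε / 2) (half_pos hε)
  refine ⟨N0, fun N hN => ?_⟩
  rw [dist_eq_norm]
  exact lt_of_le_of_lt (hN0 N hN) (half_lt_self hε)

/-- **F1 (window form of PROOF.md).** `t_i = -k + 2k·i/N`. -/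
theorem riemann_window_tendsto (Ψ : ℝ → E) (hΨ : Continuous Ψ) (k : ℝ) (hk : 0 < k) :
    Tendsto (fun N : ℕ => (N : ℝ)⁻¹ • ∑ i ∈ Finset.range N, Ψ (-k + 2 * k * i / N)) atTop
      (𝓝 ((2 * k)⁻¹ • ∫ t in (-k)..k, Ψ t)) := by
  have h := riemann_tendsto Ψ hΨ (-k) k (by linarith)
  have e : k - -k = 2 * k := by ring
  rw [e] at h
  exact h

/-- Quantitative window form. -/
theorem riemann_window_err (Ψ : ℝ → E) (hΨ : Continuous Ψ) (k : ℝ) (hk : 0 < k) (ε : ℝ)
    (hε : 0 < ε) :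
    ∃ N0 : ℕ, 0 < N0 ∧ ∀ N : ℕ, N0 ≤ N →
      ‖(N : ℝ)⁻¹ • ∑ i ∈ Finset.range N, Ψ (-k + 2 * k * i / N) -
        (2 * k)⁻¹ • ∫ t in (-k)..k, Ψ t‖ ≤ ε := by
  have h := riemann_err Ψ hΨ (-k) k (by linarith) ε hε
  have e : k - -k = 2 * k := by ring
  rw [e] at h
  exact h

/-- Eventually-form (convenient for intersecting finitely many conditions with `Filter.Eventually.and`). -/
theorem riemann_window_eventually (Ψ : ℝ → E) (hΨ : Continuous Ψ) (k : ℝ) (hk : 0 < k) (ε : ℝ)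
    (hε : 0 < ε) :
    ∀ᶠ N : ℕ in atTop,
      ‖(N : ℝ)⁻¹ • ∑ i ∈ Finset.range N, Ψ (-k + 2 * k * i / N) -
        (2 * k)⁻¹ • ∫ t in (-k)..k, Ψ t‖ ≤ ε := by
  obtain ⟨N0, _, hN0⟩ := riemann_window_err Ψ hΨ k hk ε hε
  exact eventually_atTop.mpr ⟨N0, hN0⟩

/-- Finitely many functions at once: one `N > 0` (indeed all large `N`) serves the whole family. -/
theorem riemann_window_err_fin {ι : Type*} [Finite ι] (Ψ : ι → ℝ → E) (hΨ : ∀ j, Continuous (Ψ j))
    (k : ℝ) (hk : 0 < k) (ε : ℝ) (hε : 0 < ε) :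
    ∃ N0 : ℕ, 0 < N0 ∧ ∀ N : ℕ, N0 ≤ N → ∀ j : ι,
      ‖(N : ℝ)⁻¹ • ∑ i ∈ Finset.range N, Ψ j (-k + 2 * k * i / N) -
        (2 * k)⁻¹ • ∫ t in (-k)..k, Ψ j t‖ ≤ ε := by
  have h : ∀ᶠ N : ℕ in atTop, ∀ j : ι,
      ‖(N : ℝ)⁻¹ • ∑ i ∈ Finset.range N, Ψ j (-k + 2 * k * i / N) -
        (2 * k)⁻¹ • ∫ t in (-k)..k, Ψ j t‖ ≤ ε :=
    eventually_all.mpr (fun j => riemann_window_eventually (Ψ j) (hΨ j) k hk ε hε)
  obtain ⟨N1, hN1⟩ := eventually_atTop.mp h
  exact ⟨N1 + 1, Nat.succ_pos _, fun N hN j => hN1 N (by omega) j⟩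

end real

section complex

variable {E : Type*} [NormedAddCommGroup E] [NormedSpace ℂ E] [CompleteSpace E]

omit [CompleteSpace E] in
/-- A real scalar and its complex cast act identically. -/
theorem natCast_inv_smul_complex (N : ℕ) (x : E) : ((N : ℂ))⁻¹ • x = ((N : ℝ))⁻¹ • x := by
  have h : ((N : ℂ))⁻¹ = (((N : ℝ)⁻¹ : ℝ) : ℂ) := by push_cast; rfl
  rw [h, Complex.coe_smul]

/-- **F1 with complex scalars** (`E` a complex Banach space, e.g. the Hilbert space `H`). -/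
theorem riemann_window_tendsto_complex (Ψ : ℝ → E) (hΨ : Continuous Ψ) (k : ℝ) (hk : 0 < k) :
    Tendsto (fun N : ℕ => ((N : ℂ))⁻¹ • ∑ i ∈ Finset.range N, Ψ (-k + 2 * k * i / N)) atTop
      (𝓝 ((((2 * k)⁻¹ : ℝ) : ℂ) • ∫ t in (-k)..k, Ψ t)) := by
  have h := riemann_window_tendsto Ψ hΨ k hk
  rw [Complex.coe_smul]
  refine h.congr (fun N => ?_)
  rw [natCast_inv_smul_complex]

/-- Quantitative complex-scalar window form. -/
theorem riemann_window_err_complex (Ψ : ℝ → E) (hΨ : Continuous Ψ) (k : ℝ) (hk : 0 < k) (ε : ℝ)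
    (hε : 0 < ε) :
    ∃ N0 : ℕ, 0 < N0 ∧ ∀ N : ℕ, N0 ≤ N →
      ‖((N : ℂ))⁻¹ • ∑ i ∈ Finset.range N, Ψ (-k + 2 * k * i / N) -
        (((2 * k)⁻¹ : ℝ) : ℂ) • ∫ t in (-k)..k, Ψ t‖ ≤ ε := by
  obtain ⟨N0, h0, hN0⟩ := riemann_window_err Ψ hΨ k hk ε hε
  refine ⟨N0, h0, fun N hN => ?_⟩
  rw [natCast_inv_smul_complex, Complex.coe_smul]
  exact hN0 N hN

end complex

end Crest.Agent.Helper97.S0112
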