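/-
S0112 (row 84), package F of notes/s0112/PROOF.md, Prelude-facing part: the Prelude's `windowMean`
as an interval integral, and uniform-grid averages converging to it.
-/
import Crest.Prelude.Def_ModularData
import Crest.Agent.Helper97.S0112.Riemann

set_option autoImplicit false

namespace Crest.Agent.Helper97.S0112

open Filter MeasureTheory Topology

/-- The Prelude's window mean is `(2k)⁻¹ ∫_{-k}^{k} f`. -/
theorem windowMean_eq (f : ℝ → ℝ) (k : ℕ) :
    Crest.OpAlg.windowMean f k = (2 * (k : ℝ))⁻¹ * ∫ t in (-(k : ℝ))..(k : ℝ), f t := by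
  unfold Crest.OpAlg.windowMean
  have hk : (-(k : ℝ)) ≤ (k : ℝ) := by
    have : (0 : ℝ) ≤ (k : ℝ) := Nat.cast_nonneg k
    linarith
  rw [MeasureTheory.setAverage_eq, intervalIntegral.integral_of_le hk,
    MeasureTheory.integral_Icc_eq_integral_Ioc, smul_eq_mul]
  congr 1
  rw [MeasureTheory.measureReal_def, Real.volume_Icc, ENNReal.toReal_ofReal (by linarith)]
  congr 1
  ring

/-- Grid averages of a continuous real function converge to the Prelude's `windowMean` (`k ≥ 1`). -/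
theorem grid_tendsto_windowMean (f : ℝ → ℝ) (hf : Continuous f) (k : ℕ) (hk : 0 < k) :
    Tendsto (fun N : ℕ => (N : ℝ)⁻¹ * ∑ i ∈ Finset.range N, f (-(k : ℝ) + 2 * (k : ℝ) * i / N))
      atTop (𝓝 (Crest.OpAlg.windowMean f k)) := by
  have hk' : (0 : ℝ) < (k : ℝ) := by exact_mod_cast hk
  have h := riemann_window_tendsto f hf (k : ℝ) hk'
  rw [windowMean_eq]
  simpa only [smul_eq_mul] using h

/-- Quantitative form of `grid_tendsto_windowMean`. -/
theorem grid_windowMean_err (f : ℝ → ℝ) (hf : Continuous f) (k : ℕ) (hk : 0 < k) (ε : ℝ)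
    (hε : 0 < ε) :
    ∃ N0 : ℕ, 0 < N0 ∧ ∀ N : ℕ, N0 ≤ N →
      |(N : ℝ)⁻¹ * ∑ i ∈ Finset.range N, f (-(k : ℝ) + 2 * (k : ℝ) * i / N) -
        Crest.OpAlg.windowMean f k| ≤ ε := by
  have hk' : (0 : ℝ) < (k : ℝ) := by exact_mod_cast hk
  obtain ⟨N0, h0, hN0⟩ := riemann_window_err f hf (k : ℝ) hk' ε hε
  refine ⟨N0, h0, fun N hN => ?_⟩
  have := hN0 N hN
  rw [windowMean_eq]
  simpa only [smul_eq_mul, Real.norm_eq_abs] using this

/-- Eventually-form of `grid_windowMean_err`. -/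
theorem grid_windowMean_eventually (f : ℝ → ℝ) (hf : Continuous f) (k : ℕ) (hk : 0 < k) (ε : ℝ)
    (hε : 0 < ε) :
    ∀ᶠ N : ℕ in atTop,
      |(N : ℝ)⁻¹ * ∑ i ∈ Finset.range N, f (-(k : ℝ) + 2 * (k : ℝ) * i / N) -
        Crest.OpAlg.windowMean f k| ≤ ε := by
  obtain ⟨N0, _, hN0⟩ := grid_windowMean_err f hf k hk ε hε
  exact eventually_atTop.mpr ⟨N0, hN0⟩

end Crest.Agent.Helper97.S0112
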