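/-
S0112 (row 84), steps I.5-I.6 of notes/s0112/PROOF.md as an abstract averaging ("selection") lemma.
Mathlib only.
-/
import Mathlib

set_option autoImplicit false

namespace Crest.Agent.Helper97.S0112

variable {H : Type*} [NormedAddCommGroup H] [InnerProductSpace ℂ H]

/-- `‖T p‖² ≤ 2‖T q‖² + 2‖T‖²‖q - p‖²`. -/
theorem norm_sq_apply_le_two (T : H →L[ℂ] H) (p q : H) :
    ‖T p‖ ^ 2 ≤ 2 * ‖T q‖ ^ 2 + 2 * ‖T‖ ^ 2 * ‖q - p‖ ^ 2 := by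
  have h1 : T p = T q - T (q - p) := by simp
  have h2 : ‖T p‖ ≤ ‖T q‖ + ‖T (q - p)‖ := by
    rw [h1]; exact norm_sub_le _ _
  have h3 : ‖T (q - p)‖ ≤ ‖T‖ * ‖q - p‖ := T.le_opNorm _
  have h4 : ‖T p‖ ≤ ‖T q‖ + ‖T‖ * ‖q - p‖ := le_trans h2 (by linarith)
  have h5 : ‖T p‖ ^ 2 ≤ (‖T q‖ + ‖T‖ * ‖q - p‖) ^ 2 :=
    pow_le_pow_left₀ (norm_nonneg _) h4 2
  nlinarith [sq_nonneg (‖T q‖ - ‖T‖ * ‖q - p‖)]

/-- **Selection lemma (I.5-I.6), weighted-sum form.**  `Θ` a finite index set, `p θ` the untruncated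
vectors, `q θ` the truncated ones, `e θ` a bound for `‖q θ - p θ‖²`.  If
`L ≤ ∑ ‖T p θ‖²` and `2‖T‖² ∑ e θ ≤ L/2`, then `∑ ‖T q θ‖² ≥ L/4`, hence some `θ` has
`‖T q θ‖² ≥ L / (4 |Θ|)`. -/
theorem exists_large_of_sum {Θ : Type*} [Fintype Θ] [Nonempty Θ] (T : H →L[ℂ] H)
    (p q : Θ → H) (e : Θ → ℝ) (L : ℝ)
    (he : ∀ θ, ‖q θ - p θ‖ ^ 2 ≤ e θ)
    (hp : L ≤ ∑ θ, ‖T (p θ)‖ ^ 2)
    (hsum : 2 * ‖T‖ ^ 2 * ∑ θ, e θ ≤ L / 2) :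
    ∃ θ, L / (4 * (Fintype.card Θ : ℝ)) ≤ ‖T (q θ)‖ ^ 2 := by
  have hcard : (0 : ℝ) < (Fintype.card Θ : ℝ) := by exact_mod_cast Fintype.card_pos
  have h1 : ∑ θ, ‖T (p θ)‖ ^ 2 ≤ 2 * ∑ θ, ‖T (q θ)‖ ^ 2 + 2 * ‖T‖ ^ 2 * ∑ θ, e θ := by
    rw [Finset.mul_sum, Finset.mul_sum, ← Finset.sum_add_distrib]
    refine Finset.sum_le_sum (fun θ _ => ?_)
    have h := norm_sq_apply_le_two T (p θ) (q θ)
    have h' : 2 * ‖T‖ ^ 2 * ‖q θ - p θ‖ ^ 2 ≤ 2 * ‖T‖ ^ 2 * e θ :=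
      mul_le_mul_of_nonneg_left (he θ) (by positivity)
    linarith
  have h2 : L / 4 ≤ ∑ θ, ‖T (q θ)‖ ^ 2 := by linarith
  by_contra hcon
  simp only [not_exists, not_le] at hcon
  have h3 : ∑ θ, ‖T (q θ)‖ ^ 2 < ∑ _θ : Θ, L / (4 * (Fintype.card Θ : ℝ)) :=
    Finset.sum_lt_sum_of_nonempty Finset.univ_nonempty (fun θ _ => hcon θ)
  rw [Finset.sum_const, Finset.card_univ, nsmul_eq_mul] at h3
  have h4 : (Fintype.card Θ : ℝ) * (L / (4 * (Fintype.card Θ : ℝ))) = L / 4 := by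
    field_simp
  linarith

/-- **Selection lemma (I.5-I.6), PROOF.md constants.**  Averages over a finite `Θ`:
`avg ‖T p θ‖² ≥ c/2`, `‖q θ - p θ‖ ≤ m θ / (2√R)`, `avg (m θ)² ≤ B`, `2‖T‖² B ≤ c R`, `R > 0`
give some `θ` with `‖T q θ‖² ≥ c/8`. -/
theorem exists_theta {Θ : Type*} [Fintype Θ] [Nonempty Θ] (T : H →L[ℂ] H)
    (p q : Θ → H) (m : Θ → ℝ) (c B R : ℝ) (hR : 0 < R)
    (hq : ∀ θ, ‖q θ - p θ‖ ≤ m θ / (2 * Real.sqrt R))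
    (hp : c / 2 * (Fintype.card Θ : ℝ) ≤ ∑ θ, ‖T (p θ)‖ ^ 2)
    (hm : ∑ θ, m θ ^ 2 ≤ B * (Fintype.card Θ : ℝ))
    (hRB : 2 * ‖T‖ ^ 2 * B ≤ c * R) :
    ∃ θ, c / 8 ≤ ‖T (q θ)‖ ^ 2 := by
  have hcard : (0 : ℝ) < (Fintype.card Θ : ℝ) := by exact_mod_cast Fintype.card_pos
  have hsqrt : 0 < Real.sqrt R := Real.sqrt_pos.mpr hR
  have hsq : Real.sqrt R ^ 2 = R := Real.sq_sqrt hR.le
  have he : ∀ θ, ‖q θ - p θ‖ ^ 2 ≤ m θ ^ 2 / (4 * R) := by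
    intro θ
    have h1 : ‖q θ - p θ‖ ^ 2 ≤ (m θ / (2 * Real.sqrt R)) ^ 2 :=
      pow_le_pow_left₀ (norm_nonneg _) (hq θ) 2
    have h2 : (m θ / (2 * Real.sqrt R)) ^ 2 = m θ ^ 2 / (4 * R) := by
      rw [div_pow, mul_pow, hsq]; norm_num
    rw [h2] at h1
    exact h1
  have hsum : 2 * ‖T‖ ^ 2 * ∑ θ, m θ ^ 2 / (4 * R) ≤ (c / 2 * (Fintype.card Θ : ℝ)) / 2 := by
    rw [← Finset.sum_div]
    have h1 : (∑ θ, m θ ^ 2) / (4 * R) ≤ B * (Fintype.card Θ : ℝ) / (4 * R) :=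
      div_le_div_of_nonneg_right hm (by positivity)
    have h2 : 2 * ‖T‖ ^ 2 * ((∑ θ, m θ ^ 2) / (4 * R)) ≤
        2 * ‖T‖ ^ 2 * (B * (Fintype.card Θ : ℝ) / (4 * R)) :=
      mul_le_mul_of_nonneg_left h1 (by positivity)
    have h3 : 2 * ‖T‖ ^ 2 * (B * (Fintype.card Θ : ℝ) / (4 * R)) =
        (2 * ‖T‖ ^ 2 * B) * (Fintype.card Θ : ℝ) / (4 * R) := by ring
    have h4 : (2 * ‖T‖ ^ 2 * B) * (Fintype.card Θ : ℝ) / (4 * R) ≤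
        (c * R) * (Fintype.card Θ : ℝ) / (4 * R) :=
      div_le_div_of_nonneg_right (mul_le_mul_of_nonneg_right hRB hcard.le) (by positivity)
    have h5 : (c * R) * (Fintype.card Θ : ℝ) / (4 * R) = (c / 2 * (Fintype.card Θ : ℝ)) / 2 := by
      field_simp; ring
    linarith
  obtain ⟨θ, hθ⟩ := exists_large_of_sum T p q (fun θ => m θ ^ 2 / (4 * R))
    (c / 2 * (Fintype.card Θ : ℝ)) he hp hsum
  refine ⟨θ, ?_⟩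
  have h6 : c / 2 * (Fintype.card Θ : ℝ) / (4 * (Fintype.card Θ : ℝ)) = c / 8 := by
    field_simp; ring
  rw [h6] at hθ
  exact hθ

end Crest.Agent.Helper97.S0112
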