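/-
S0112 (row 84), leaf I1 of the assembly (second track): unpacking the Prelude's `ultraMean`.
A bounded sequence converges along an ultrafilter, so `limUnder` is a genuine limit.
-/
import Crest.Prelude.Def_ModularData
import Crest.Agent.Helper97.S0112.RiemannWindow

set_option autoImplicit false

namespace Crest.Agent.Helper97.S0112

open Filter MeasureTheory Topology

/-- A real sequence with values in `[A, B]` converges along any ultrafilter to its `limUnder`. -/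
theorem tendsto_limUnder_of_bdd (ω : Ultrafilter ℕ) (u : ℕ → ℝ) (A B : ℝ)
    (hA : ∀ k, A ≤ u k) (hB : ∀ k, u k ≤ B) :
    Tendsto u (ω : Filter ℕ) (𝓝 (limUnder (ω : Filter ℕ) u)) ∧
      limUnder (ω : Filter ℕ) u ∈ Set.Icc A B := by
  have hmem : Set.Icc A B ∈ (ω.map u : Filter ℝ) := by
    rw [Ultrafilter.coe_map, Filter.mem_map]
    exact Filter.univ_mem' (fun k => ⟨hA k, hB k⟩)
  obtain ⟨L, hL, hle⟩ := (isCompact_Icc (a := A) (b := B)).ultrafilter_le_nhds (ω.map u)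
    (Filter.le_principal_iff.mpr hmem)
  have ht : Tendsto u (ω : Filter ℕ) (𝓝 L) := by
    rw [Filter.Tendsto]
    rw [Ultrafilter.coe_map] at hle
    exact hle
  have hlim : limUnder (ω : Filter ℕ) u = L := ht.limUnder_eq
  rw [hlim]
  exact ⟨ht, hL⟩

/-- Window means of a function with values in `[0, B]` lie in `[0, B]`. -/
theorem windowMean_mem_Icc (f : ℝ → ℝ) (hf : Continuous f) (B : ℝ) (h0 : ∀ t, 0 ≤ f t)
    (hB : ∀ t, f t ≤ B) (k : ℕ) :
    0 ≤ Crest.OpAlg.windowMean f k ∧ Crest.OpAlg.windowMean f k ≤ B := by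
  have hB0 : 0 ≤ B := le_trans (h0 0) (hB 0)
  rw [windowMean_eq]
  have hk0 : (0 : ℝ) ≤ (k : ℝ) := Nat.cast_nonneg k
  have hle : (-(k : ℝ)) ≤ (k : ℝ) := by linarith
  have hint0 : 0 ≤ ∫ t in (-(k : ℝ))..(k : ℝ), f t :=
    intervalIntegral.integral_nonneg hle (fun t _ => h0 t)
  have hintB : ∫ t in (-(k : ℝ))..(k : ℝ), f t ≤ B * (2 * (k : ℝ)) := by
    have h1 : ∫ t in (-(k : ℝ))..(k : ℝ), f t ≤ ∫ _t in (-(k : ℝ))..(k : ℝ), B :=
      intervalIntegral.integral_mono_on hle (hf.intervalIntegrable _ _)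
        intervalIntegrable_const (fun t _ => hB t)
    rw [intervalIntegral.integral_const, smul_eq_mul] at h1
    calc ∫ t in (-(k : ℝ))..(k : ℝ), f t ≤ ((k : ℝ) - -(k : ℝ)) * B := h1
      _ = B * (2 * (k : ℝ)) := by ring
  constructor
  · exact mul_nonneg (inv_nonneg.mpr (by linarith)) hint0
  · rcases eq_or_lt_of_le hk0 with hk | hk
    · rw [← hk]; simpa using hB0
    · have h2k : (0 : ℝ) < 2 * (k : ℝ) := by linarith
      rw [inv_mul_le_iff₀ h2k]
      linarith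

/-- The window means converge along `ω` to the `ultraMean` (for continuous `0 ≤ f ≤ B`). -/
theorem tendsto_windowMean_ultraMean (ω : Ultrafilter ℕ) (f : ℝ → ℝ) (hf : Continuous f) (B : ℝ)
    (h0 : ∀ t, 0 ≤ f t) (hB : ∀ t, f t ≤ B) :
    Tendsto (Crest.OpAlg.windowMean f) (ω : Filter ℕ) (𝓝 (Crest.OpAlg.ultraMean ω f)) :=
  (tendsto_limUnder_of_bdd ω (Crest.OpAlg.windowMean f) 0 B
    (fun k => (windowMean_mem_Icc f hf B h0 hB k).1)
    (fun k => (windowMean_mem_Icc f hf B h0 hB k).2)).1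

/-- **Leaf I1** (coordinator's shape). -/
theorem eventually_windowMean_gt (ω : Ultrafilter ℕ) (f : ℝ → ℝ) (hf : Continuous f) (B : ℝ)
    (h0 : ∀ t, 0 ≤ f t) (hB : ∀ t, f t ≤ B) (c : ℝ) (hc : 0 < c)
    (h : c ≤ Crest.OpAlg.ultraMean ω f) :
    ∀ᶠ k in (ω : Filter ℕ), 3 * c / 4 < Crest.OpAlg.windowMean f k := by
  have ht := tendsto_windowMean_ultraMean ω f hf B h0 hB
  have hlt : 3 * c / 4 < Crest.OpAlg.ultraMean ω f := by linarith
  exact ht.eventually (lt_mem_nhds hlt)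

/-- Variant with any threshold `c' < ultraMean`. -/
theorem eventually_windowMean_gt' (ω : Ultrafilter ℕ) (f : ℝ → ℝ) (hf : Continuous f) (B : ℝ)
    (h0 : ∀ t, 0 ≤ f t) (hB : ∀ t, f t ≤ B) (c' : ℝ)
    (h : c' < Crest.OpAlg.ultraMean ω f) :
    ∀ᶠ k in (ω : Filter ℕ), c' < Crest.OpAlg.windowMean f k :=
  (tendsto_windowMean_ultraMean ω f hf B h0 hB).eventually (lt_mem_nhds h)

/-- For a free ultrafilter (`ω ≤ atTop`) the good window can be taken as large as we like: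
given an `ω`-large set of `k` and an `atTop`-eventual property, some `k ≥ K0` has both. -/
theorem exists_large_of_ultra {ω : Ultrafilter ℕ} (hω : (ω : Filter ℕ) ≤ atTop) {P Q : ℕ → Prop}
    (hP : ∀ᶠ k in (ω : Filter ℕ), P k) (hQ : ∀ᶠ k in atTop, Q k) (K0 : ℕ) :
    ∃ k : ℕ, K0 ≤ k ∧ P k ∧ Q k := by
  have h1 : ∀ᶠ k in (ω : Filter ℕ), K0 ≤ k := hω (eventually_ge_atTop K0)
  have h2 : ∀ᶠ k in (ω : Filter ℕ), Q k := hω hQ
  obtain ⟨k, hk⟩ := ((h1.and hP).and h2).exists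
  exact ⟨k, hk.1.1, hk.1.2, hk.2⟩

/-- Extraction step I.7: a frequently-true property and an eventually-true one hold together along
a strictly increasing sequence. -/
theorem exists_strictMono_of_frequently_and_eventually {P Q : ℕ → Prop}
    (hP : ∃ᶠ n in atTop, P n) (hQ : ∀ᶠ n in atTop, Q n) :
    ∃ n' : ℕ → ℕ, StrictMono n' ∧ ∀ j, P (n' j) ∧ Q (n' j) :=
  Filter.extraction_of_frequently_atTop (hP.and_eventually hQ)

end Crest.Agent.Helper97.S0112
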